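/-
P235-M, helper276.  MIX, abstract form (row 2672): two independent random insides glued by an
increasing density; E r_X <= 16 E r_W.
-/
import Vale.Agent.P235.R2.H549.Bridge

namespace Vale.Agent.P235.R2.H276

open Equiv Finset VPBruhat
open scoped Pointwise

section comb

set_option linter.unusedSectionVars false

variable {α : Type*} [DecidableEq α] [Fintype α]

/-- `u ∈ A` and `d ∉ A`, as a real number -/
noncomputable def ee (A : Finset α) (d u : α) : ℝ := if u ∈ A ∧ d ∉ A then 1 else 0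

theorem ee_nonneg (A : Finset α) (d u : α) : 0 ≤ ee A d u := by
  unfold ee; split_ifs <;> norm_num

theorem ee_le_one (A : Finset α) (d u : α) : ee A d u ≤ 1 := by
  unfold ee; split_ifs <;> norm_num

/-- normalised weight of a pair -/
noncomputable def ww (Lo A : Finset α) (d u : α) : ℝ := ee A d u / ((A \ Lo).card : ℝ)

theorem ww_nonneg (Lo A : Finset α) (d u : α) : 0 ≤ ww Lo A d u :=
  div_nonneg (ee_nonneg _ _ _) (Nat.cast_nonneg _)

theorem sum_ee (Lo A : Finset α) :
    ∑ d ∈ Lo, ∑ u ∈ Loᶜ, ee A d u = ((Lo \ A).card : ℝ) * ((A \ Lo).card : ℝ) := by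
  have h : ∀ d u, ee A d u = (if d ∉ A then (1:ℝ) else 0) * (if u ∈ A then 1 else 0) := by
    intro d u; unfold ee
    by_cases h1 : u ∈ A <;> by_cases h2 : d ∈ A <;> simp [h1, h2]
  simp only [h]
  rw [← Finset.sum_mul_sum]
  congr 1
  · rw [Finset.sum_ite, Finset.sum_const_zero, add_zero, Finset.sum_const, nsmul_eq_mul, mul_one]
    congr 2
    ext x; simp
  · rw [Finset.sum_ite, Finset.sum_const_zero, add_zero, Finset.sum_const, nsmul_eq_mul, mul_one]
    congr 2
    ext x; simp [and_comm]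

theorem card_sdiff_symm {A B : Finset α} (h : A.card = B.card) :
    (A \ B).card = (B \ A).card := by
  have h1 := Finset.card_sdiff_add_card_inter A B
  have h2 := Finset.card_sdiff_add_card_inter B A
  rw [Finset.inter_comm] at h2
  omega

theorem sum_ww {Lo A : Finset α} (h : A.card = Lo.card) :
    ∑ d ∈ Lo, ∑ u ∈ Loᶜ, ww Lo A d u = ((A \ Lo).card : ℝ) := by
  unfold ww
  simp only [← Finset.sum_div]
  rw [sum_ee, card_sdiff_symm h]
  by_cases h0 : ((Lo \ A).card : ℝ) = 0
  · rw [h0]; simp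
  · rw [mul_div_assoc, div_self h0, mul_one]

theorem sum_ww_sub {Lo A A' : Finset α} (h : A.card = Lo.card) (h' : A'.card = Lo.card) :
    ∑ d ∈ Lo, ∑ u ∈ Loᶜ, ww Lo A d u * (1 - ee A' d u) ≤ 2 * ((A \ A').card : ℝ) := by
  set ρ : ℝ := ((A \ Lo).card : ℝ) with hρ
  by_cases h0 : ρ = 0
  · unfold ww
    rw [← hρ, h0]
    simp
  have hρ0 : 0 < ρ := lt_of_le_of_ne (Nat.cast_nonneg _) (Ne.symm h0)
  have e1 : ∀ d u, ww Lo A d u * (1 - ee A' d u) = ee A d u * (1 - ee A' d u) / ρ := by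
    intro d u; unfold ww; rw [← hρ]; ring
  simp only [e1, ← Finset.sum_div]
  rw [div_le_iff₀ hρ0]
  have e2 : ∀ d ∈ Lo, ∀ u ∈ Loᶜ, ee A d u * (1 - ee A' d u) ≤
      (if d ∈ Lo \ A then (1:ℝ) else 0) * (if u ∈ A \ A' then 1 else 0) +
      (if d ∈ A' \ A then (1:ℝ) else 0) * (if u ∈ A \ Lo then 1 else 0) := by
    intro d hd u hu
    rw [Finset.mem_compl] at hu
    unfold ee
    by_cases h1 : u ∈ A <;> by_cases h2 : d ∈ A <;> by_cases h3 : u ∈ A' <;>
      by_cases h4 : d ∈ A' <;> simp [h1, h2, h3, h4, hd, hu]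
  refine (Finset.sum_le_sum (fun d hd => Finset.sum_le_sum (fun u hu => e2 d hd u hu))).trans ?_
  simp only [Finset.sum_add_distrib]
  rw [← Finset.sum_mul_sum, ← Finset.sum_mul_sum]
  have c1 : ∑ d ∈ Lo, (if d ∈ Lo \ A then (1:ℝ) else 0) ≤ ρ := by
    rw [Finset.sum_ite, Finset.sum_const_zero, add_zero, Finset.sum_const, nsmul_eq_mul, mul_one,
      hρ, card_sdiff_symm h]
    exact_mod_cast Finset.card_le_card (fun x hx => by
      simp only [Finset.mem_filter] at hx; exact hx.2)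
  have c2 : ∑ u ∈ Loᶜ, (if u ∈ A \ A' then (1:ℝ) else 0) ≤ ((A \ A').card : ℝ) := by
    rw [Finset.sum_ite, Finset.sum_const_zero, add_zero, Finset.sum_const, nsmul_eq_mul, mul_one]
    exact_mod_cast Finset.card_le_card (fun x hx => by
      simp only [Finset.mem_filter] at hx; exact hx.2)
  have c3 : ∑ d ∈ Lo, (if d ∈ A' \ A then (1:ℝ) else 0) ≤ ((A \ A').card : ℝ) := by
    rw [Finset.sum_ite, Finset.sum_const_zero, add_zero, Finset.sum_const, nsmul_eq_mul, mul_one,
      card_sdiff_symm (h.trans h'.symm)]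
    exact_mod_cast Finset.card_le_card (fun x hx => by
      simp only [Finset.mem_filter] at hx; exact hx.2)
  have c4 : ∑ u ∈ Loᶜ, (if u ∈ A \ Lo then (1:ℝ) else 0) ≤ ρ := by
    rw [Finset.sum_ite, Finset.sum_const_zero, add_zero, Finset.sum_const, nsmul_eq_mul, mul_one,
      hρ]
    exact_mod_cast Finset.card_le_card (fun x hx => by
      simp only [Finset.mem_filter] at hx; exact hx.2)
  have n1 : (0:ℝ) ≤ ∑ d ∈ Lo, (if d ∈ Lo \ A then (1:ℝ) else 0) :=
    Finset.sum_nonneg (fun _ _ => by split_ifs <;> norm_num)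
  have n2 : (0:ℝ) ≤ ∑ u ∈ Loᶜ, (if u ∈ A \ A' then (1:ℝ) else 0) :=
    Finset.sum_nonneg (fun _ _ => by split_ifs <;> norm_num)
  have n3 : (0:ℝ) ≤ ∑ d ∈ Lo, (if d ∈ A' \ A then (1:ℝ) else 0) :=
    Finset.sum_nonneg (fun _ _ => by split_ifs <;> norm_num)
  have n4 : (0:ℝ) ≤ ∑ u ∈ Loᶜ, (if u ∈ A \ Lo then (1:ℝ) else 0) :=
    Finset.sum_nonneg (fun _ _ => by split_ifs <;> norm_num)
  have m1 := mul_le_mul c1 c2 n2 hρ0.le
  have m2 := mul_le_mul c3 c4 n4 (Nat.cast_nonneg _)
  calc _ ≤ ρ * ((A \ A').card : ℝ) + ((A \ A').card : ℝ) * ρ := add_le_add m1 m2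
    _ = _ := by ring

theorem card_sdiff_triangle (A B C : Finset α) :
    (A \ C).card ≤ (A \ B).card + (B \ C).card := by
  refine (Finset.card_le_card ?_).trans (Finset.card_union_le _ _)
  intro x hx
  simp only [Finset.mem_sdiff, Finset.mem_union] at hx ⊢
  tauto

end comb

section abs

set_option linter.unusedSectionVars false

variable {α : Type*} [LinearOrder α] [Fintype α]

/-- the number of strands which leave the lower set `Lo` -/
def fl (Lo : Finset α) (v : Perm α) : ℕ := (Lo.filter (fun i => v i ∉ Lo)).card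

/-- positions (after `x`) of the strands which start in `Lo` -/
def im (Lo : Finset α) (x : Perm α) : Finset α := Lo.map x.toEmbedding

theorem card_im (Lo : Finset α) (x : Perm α) : (im Lo x).card = Lo.card := Finset.card_map _

theorem mem_im {Lo : Finset α} {x : Perm α} {p : α} : p ∈ im Lo x ↔ x⁻¹ p ∈ Lo := by
  unfold im
  rw [Finset.mem_map_equiv]
  rfl

theorem fl_eq (Lo : Finset α) (x : Perm α) : fl Lo x = (im Lo x \ Lo).card := by
  unfold fl im
  rw [← Finset.card_map x.toEmbedding]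
  congr 1
  ext p
  simp only [Finset.mem_map_equiv, Finset.mem_filter, Finset.mem_sdiff, Equiv.apply_symm_apply]

theorem fl_mul_eq (Lo : Finset α) (x y : Perm α) :
    fl Lo (y * x) = (im Lo x \ im Lo y⁻¹).card := by
  unfold fl im
  rw [← Finset.card_map x.toEmbedding]
  congr 1
  ext p
  simp only [Finset.mem_map_equiv, Finset.mem_filter, Finset.mem_sdiff]
  rw [Perm.mul_apply, Equiv.apply_symm_apply]
  rfl

variable {Ω₁ Ω₂ : Type*} [Fintype Ω₁] [Fintype Ω₂]

/-- **MIX, abstract form.** -/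
theorem mix_abs {κ₁ : Ω₁ → ℝ} {κ₂ : Ω₂ → ℝ} {v₁ : Ω₁ → Perm α} {v₂ : Ω₂ → Perm α}
    {x : Ω₁ → Perm α} {y : Ω₂ → Perm α} {I₁ I₂ : Finset (Perm α)}
    (hI₂ : IsDown I₂)
    (k1 : ∀ ω, 0 ≤ κ₁ ω) (k2 : ∀ ω, 0 ≤ κ₂ ω)
    (m1 : ∀ z, ∑ ω, (if v₁ ω = z then κ₁ ω else 0) = ind I₁ z)
    (m2 : ∀ z, ∑ ω, (if v₂ ω = z then κ₂ ω else 0) = ind I₂ z)
    {H : Perm α → ℝ} (H0 : ∀ z ∈ I₂ * I₁, 0 ≤ H z) (Hinc : IncOn (I₂ * I₁) H)
    {Lo : Finset α} (hLo : ∀ p q, p ≤ q → q ∈ Lo → p ∈ Lo)
    (half1 : ∀ z ∈ I₁, ∀ p q, p < q → z⁻¹ p < z⁻¹ q →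
      ∑ ω, (if v₁ ω = z ∧ (x ω)⁻¹ q < (x ω)⁻¹ p then κ₁ ω else 0) ≤ 1 / 2)
    (half2 : ∀ z ∈ I₂, ∀ p q, p < q → z p < z q →
      ∑ ω, (if v₂ ω = z ∧ y ω q < y ω p then κ₂ ω else 0) ≤ 1 / 2) :
    ∑ a, ∑ b, κ₁ a * κ₂ b * H (v₂ b * v₁ a) * (fl Lo (x a) : ℝ) ≤
      16 * ∑ a, ∑ b, κ₁ a * κ₂ b * H (v₂ b * v₁ a) * (fl Lo (y b * x a) : ℝ) := by
  classical
  -- membership from nonzero weights
  have mem1 : ∀ ω, κ₁ ω ≠ 0 → v₁ ω ∈ I₁ := by
    intro ω hω
    by_contra hc
    have h := m1 (v₁ ω)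
    rw [show ind I₁ (v₁ ω) = 0 from if_neg hc] at h
    have h' := (Finset.sum_eq_zero_iff_of_nonneg (fun i _ => by
      split_ifs
      · exact k1 i
      · exact le_rfl)).1 h ω (Finset.mem_univ _)
    simp only [if_true] at h'
    exact hω h'
  have mem2 : ∀ ω, κ₂ ω ≠ 0 → v₂ ω ∈ I₂ := by
    intro ω hω
    by_contra hc
    have h := m2 (v₂ ω)
    rw [show ind I₂ (v₂ ω) = 0 from if_neg hc] at h
    have h' := (Finset.sum_eq_zero_iff_of_nonneg (fun i _ => by
      split_ifs
      · exact k2 i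
      · exact le_rfl)).1 h ω (Finset.mem_univ _)
    simp only [if_true] at h'
    exact hω h'
  set A : Ω₁ → Finset α := fun a => im Lo (x a) with hA
  set B : Ω₂ → Finset α := fun b => im Lo (y b)⁻¹ with hB
  set M : Perm α → ℝ := fun z => ∑ b, κ₂ b * H (v₂ b * z) with hM
  have M0 : ∀ z ∈ I₁, 0 ≤ M z := by
    intro z hz
    refine Finset.sum_nonneg (fun b _ => ?_)
    by_cases hb : κ₂ b = 0
    · rw [hb, zero_mul]
    · exact mul_nonneg (k2 b) (H0 _ (Finset.mul_mem_mul (mem2 b hb) hz))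
  -- the even step
  have even : ∀ a, κ₁ a ≠ 0 → ∀ d ∈ Lo, ∀ u ∈ Loᶜ, (v₁ a)⁻¹ d < (v₁ a)⁻¹ u →
      1 ≤ 2 * ∑ a', (if v₁ a' = v₁ a then κ₁ a' * (1 - ee (A a') d u) else 0) := by
    intro a ha d hd u hu hlt
    have hdu : d < u := by
      rw [Finset.mem_compl] at hu
      by_contra hc
      exact hu (hLo u d (not_lt.1 hc) hd)
    have h1 := half1 (v₁ a) (mem1 a ha) d u hdu hlt
    have h2 := m1 (v₁ a)
    rw [show ind I₁ (v₁ a) = 1 from if_pos (mem1 a ha)] at h2
    have h3 : ∑ a', (if v₁ a' = v₁ a then κ₁ a' * (1 - ee (A a') d u) else 0) ≥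
        ∑ a', (if v₁ a' = v₁ a then κ₁ a' else 0) -
        ∑ a', (if v₁ a' = v₁ a ∧ (x a')⁻¹ u < (x a')⁻¹ d then κ₁ a' else 0) := by
      rw [← Finset.sum_sub_distrib]
      refine Finset.sum_le_sum (fun a' _ => ?_)
      by_cases h : v₁ a' = v₁ a
      · simp only [h, if_true, true_and]
        by_cases h' : (x a')⁻¹ u < (x a')⁻¹ d
        · rw [if_pos h', sub_self]
          exact mul_nonneg (k1 _) (sub_nonneg.2 (ee_le_one _ _ _))
        · rw [if_neg h', sub_zero]
          have : ee (A a') d u = 0 := by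
            unfold ee
            rw [if_neg]
            rintro ⟨hu1, hd1⟩
            rw [hA, mem_im] at hu1 hd1
            refine hd1 (hLo _ _ (not_lt.1 h') hu1)
          rw [this, sub_zero, mul_one]
      · simp [h]
    linarith
  -- the odd step
  have odd : ∀ a, κ₁ a ≠ 0 → ∀ d ∈ Lo, ∀ u ∈ Loᶜ, (v₁ a)⁻¹ u < (v₁ a)⁻¹ d →
      M (v₁ a) ≤ 4 * ∑ b, κ₂ b * H (v₂ b * v₁ a) * (1 - ee (B b) d u) := by
    intro a ha d hd u hu hlt
    have hdu : d < u := by
      rw [Finset.mem_compl] at hu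
      by_contra hc
      exact hu (hLo u d (not_lt.1 hc) hd)
    set z₁ := v₁ a with hz₁
    have hz₁m : z₁ ∈ I₁ := mem1 a ha
    -- sums over the values of the right part
    have fib : ∀ φ : Ω₂ → ℝ, ∑ b, κ₂ b * H (v₂ b * z₁) * φ b =
        ∑ z, H (z * z₁) * ∑ b, (if v₂ b = z then κ₂ b * φ b else 0) := by
      intro φ
      simp only [Finset.mul_sum]
      rw [Finset.sum_comm]
      refine Finset.sum_congr rfl (fun b _ => ?_)
      rw [Finset.sum_eq_single (v₂ b)]
      · simp; ring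
      · intro z _ hz
        rw [if_neg (Ne.symm hz), mul_zero]
      · simp
    have e1 : M z₁ = ∑ z, H (z * z₁) * ind I₂ z := by
      have := fib (fun _ => 1)
      simp only [mul_one] at this
      rw [hM]
      simp only
      rw [this]
      exact Finset.sum_congr rfl (fun z _ => by rw [m2 z])
    have e2 := fib (fun b => 1 - ee (B b) d u)
    rw [e1, e2]
    -- compare the odd values with the even ones
    set T : Perm α → ℝ := fun z => H (z * z₁) * ind I₂ z with hT
    have Tnn : ∀ z, 0 ≤ T z := by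
      intro z
      rw [hT]; simp only
      by_cases hz : z ∈ I₂
      · exact mul_nonneg (H0 _ (Finset.mul_mem_mul hz hz₁m)) (ind_nonneg _ _)
      · rw [show ind I₂ z = 0 from if_neg hz, mul_zero]
    have hsplit : ∑ z, T z = ∑ z, (if z d < z u then T z else 0) +
        ∑ z, (if z u < z d then T z else 0) := by
      rw [← Finset.sum_add_distrib]
      refine Finset.sum_congr rfl (fun z _ => ?_)
      rcases lt_trichotomy (z d) (z u) with h | h | h
      · rw [if_pos h, if_neg (not_lt.2 h.le), add_zero]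
      · exact absurd (z.injective h) hdu.ne
      · rw [if_neg (not_lt.2 h.le), if_pos h, zero_add]
    have hodd : ∑ z, (if z u < z d then T z else 0) ≤ ∑ z, (if z d < z u then T z else 0) := by
      have hre : ∑ z, (if z u < z d then T z else 0) =
          ∑ z, (if z d < z u then T (z * swap d u) else 0) := by
        refine Fintype.sum_equiv (Equiv.mulRight (swap d u)) _ _ (fun z => ?_)
        simp only [Equiv.coe_mulRight, Perm.mul_apply, swap_apply_left, swap_apply_right]
        rw [mul_assoc, swap_mul_self, mul_one]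
      rw [hre]
      refine Finset.sum_le_sum (fun z _ => ?_)
      by_cases h : z d < z u
      · rw [if_pos h, if_pos h]
        by_cases hz : z * swap d u ∈ I₂
        · have hup : Up z (z * swap d u) := ⟨d, u, hdu, h, rfl⟩
          have hzI : z ∈ I₂ := hI₂ _ _ hup hz
          rw [hT]; simp only
          rw [show ind I₂ z = 1 from if_pos hzI, show ind I₂ (z * swap d u) = 1 from if_pos hz,
            mul_one, mul_one]
          refine Hinc _ _ (Finset.mul_mem_mul hz hz₁m) (Finset.mul_mem_mul hzI hz₁m) ?_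
          have hu' : z₁ (z₁⁻¹ u) = u := by simp
          have hd' : z₁ (z₁⁻¹ d) = d := by simp
          refine ⟨z₁⁻¹ u, z₁⁻¹ d, hlt, ?_, ?_⟩
          · simp only [Perm.mul_apply]
            rw [hu', hd', swap_apply_left, swap_apply_right]
            exact h
          · rw [mul_assoc _ z₁, mul_swap_eq z₁, hu', hd', swap_comm u d, mul_assoc,
              ← mul_assoc (swap d u), swap_mul_self, one_mul]
        · rw [hT]; simp only
          rw [show ind I₂ (z * swap d u) = 0 from if_neg hz, mul_zero]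
          exact Tnn z
      · rw [if_neg h, if_neg h]
    have heven : ∑ z, (if z d < z u then T z else 0) ≤
        2 * ∑ z, H (z * z₁) * ∑ b, (if v₂ b = z then κ₂ b * (1 - ee (B b) d u) else 0) := by
      rw [Finset.mul_sum]
      refine Finset.sum_le_sum (fun z _ => ?_)
      have hin : ∀ z', 0 ≤ ∑ b, (if v₂ b = z' then κ₂ b * (1 - ee (B b) d u) else 0) := by
        intro z'
        refine Finset.sum_nonneg (fun b _ => ?_)
        split_ifs
        · exact mul_nonneg (k2 _) (sub_nonneg.2 (ee_le_one _ _ _))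
        · exact le_rfl
      by_cases hz : z ∈ I₂
      · have hH := H0 _ (Finset.mul_mem_mul hz hz₁m)
        by_cases h : z d < z u
        · rw [if_pos h]
          have h1 := half2 z hz d u hdu h
          have h2 := m2 z
          rw [show ind I₂ z = 1 from if_pos hz] at h2
          have h3 : ∑ b, (if v₂ b = z then κ₂ b * (1 - ee (B b) d u) else 0) ≥
              ∑ b, (if v₂ b = z then κ₂ b else 0) -
              ∑ b, (if v₂ b = z ∧ y b u < y b d then κ₂ b else 0) := by
            rw [← Finset.sum_sub_distrib]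
            refine Finset.sum_le_sum (fun b _ => ?_)
            by_cases hb : v₂ b = z
            · simp only [hb, if_true, true_and]
              by_cases h' : y b u < y b d
              · rw [if_pos h', sub_self]
                exact mul_nonneg (k2 _) (sub_nonneg.2 (ee_le_one _ _ _))
              · rw [if_neg h', sub_zero]
                have : ee (B b) d u = 0 := by
                  unfold ee
                  rw [if_neg]
                  rintro ⟨hu1, hd1⟩
                  rw [hB, mem_im, inv_inv] at hu1 hd1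
                  exact hd1 (hLo _ _ (not_lt.1 h') hu1)
                rw [this, sub_zero, mul_one]
            · simp [hb]
          rw [hT]; simp only
          rw [show ind I₂ z = 1 from if_pos hz, mul_one]
          nlinarith
        · rw [if_neg h]
          exact mul_nonneg (by norm_num) (mul_nonneg hH (hin z))
      · have hz0 : ∑ b, (if v₂ b = z then κ₂ b * (1 - ee (B b) d u) else 0) = 0 := by
          refine Finset.sum_eq_zero (fun b _ => ?_)
          split_ifs with hb
          · have : κ₂ b = 0 := by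
              by_contra hc
              exact hz (hb ▸ mem2 b hc)
            rw [this, zero_mul]
          · rfl
        rw [hz0, mul_zero, mul_zero]
        split_ifs
        · rw [hT]; simp only
          rw [show ind I₂ z = 0 from if_neg hz, mul_zero]
        · exact le_rfl
    linarith
  -- expectation of the flux of the first window
  have key : ∀ a, (∑ b, κ₁ a * κ₂ b * H (v₂ b * v₁ a) * (fl Lo (x a) : ℝ)) ≤
      κ₁ a * (4 * (∑ a', (if v₁ a' = v₁ a then κ₁ a' * ((A a \ A a').card : ℝ) else 0)) *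
        M (v₁ a) + 8 * ∑ b, κ₂ b * H (v₂ b * v₁ a) * ((A a \ B b).card : ℝ)) := by
    intro a
    by_cases ha : κ₁ a = 0
    · simp [ha]
    have hz₁m : v₁ a ∈ I₁ := mem1 a ha
    have l1 : ∑ b, κ₁ a * κ₂ b * H (v₂ b * v₁ a) * (fl Lo (x a) : ℝ) =
        κ₁ a * ∑ d ∈ Lo, ∑ u ∈ Loᶜ, ww Lo (A a) d u * M (v₁ a) := by
      have : ∑ d ∈ Lo, ∑ u ∈ Loᶜ, ww Lo (A a) d u * M (v₁ a) =
          (∑ d ∈ Lo, ∑ u ∈ Loᶜ, ww Lo (A a) d u) * M (v₁ a) := by
        rw [Finset.sum_mul]
        exact Finset.sum_congr rfl (fun d _ => by rw [Finset.sum_mul])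
      rw [this, sum_ww (card_im Lo (x a)), fl_eq, hM]
      simp only
      rw [Finset.mul_sum, Finset.mul_sum]
      exact Finset.sum_congr rfl (fun b _ => by ring)
    rw [l1]
    refine mul_le_mul_of_nonneg_left ?_ (k1 a)
    have step : ∀ d ∈ Lo, ∀ u ∈ Loᶜ, ww Lo (A a) d u * M (v₁ a) ≤
        2 * (∑ a', (if v₁ a' = v₁ a then κ₁ a' * (ww Lo (A a) d u * (1 - ee (A a') d u)) else 0)) *
          M (v₁ a) +
        4 * ∑ b, κ₂ b * H (v₂ b * v₁ a) * (ww Lo (A a) d u * (1 - ee (B b) d u)) := by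
      intro d hd u hu
      have w0 := ww_nonneg Lo (A a) d u
      have f1 : ∑ a', (if v₁ a' = v₁ a then κ₁ a' * (ww Lo (A a) d u * (1 - ee (A a') d u)) else 0)
          = ww Lo (A a) d u *
            ∑ a', (if v₁ a' = v₁ a then κ₁ a' * (1 - ee (A a') d u) else 0) := by
        rw [Finset.mul_sum]
        refine Finset.sum_congr rfl (fun a' _ => ?_)
        split_ifs <;> ring
      have f2 : ∑ b, κ₂ b * H (v₂ b * v₁ a) * (ww Lo (A a) d u * (1 - ee (B b) d u)) =
          ww Lo (A a) d u * ∑ b, κ₂ b * H (v₂ b * v₁ a) * (1 - ee (B b) d u) := by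
        rw [Finset.mul_sum]
        exact Finset.sum_congr rfl (fun b _ => by ring)
      have s1 : 0 ≤ ∑ a', (if v₁ a' = v₁ a then κ₁ a' * (1 - ee (A a') d u) else 0) := by
        refine Finset.sum_nonneg (fun a' _ => ?_)
        split_ifs
        · exact mul_nonneg (k1 _) (sub_nonneg.2 (ee_le_one _ _ _))
        · exact le_rfl
      have s2 : 0 ≤ ∑ b, κ₂ b * H (v₂ b * v₁ a) * (1 - ee (B b) d u) := by
        refine Finset.sum_nonneg (fun b _ => ?_)
        by_cases hb : κ₂ b = 0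
        · rw [hb]; simp
        · exact mul_nonneg (mul_nonneg (k2 b) (H0 _ (Finset.mul_mem_mul (mem2 b hb) hz₁m)))
            (sub_nonneg.2 (ee_le_one _ _ _))
      rw [f1, f2]
      have hM0 := M0 _ hz₁m
      rcases lt_trichotomy ((v₁ a)⁻¹ d) ((v₁ a)⁻¹ u) with h | h | h
      · have he := even a ha d hd u hu h
        have h1 : ww Lo (A a) d u * M (v₁ a) * 1 ≤ ww Lo (A a) d u * M (v₁ a) *
            (2 * ∑ a', (if v₁ a' = v₁ a then κ₁ a' * (1 - ee (A a') d u) else 0)) :=
          mul_le_mul_of_nonneg_left he (mul_nonneg w0 hM0)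
        have h2 := mul_nonneg w0 s2
        nlinarith
      · have hdu : d = u := (v₁ a)⁻¹.injective h
        rw [Finset.mem_compl] at hu
        exact absurd (hdu ▸ hd) hu
      · have ho := odd a ha d hd u hu h
        have h1 := mul_le_mul_of_nonneg_left ho w0
        have h2 := mul_nonneg (mul_nonneg w0 s1) hM0
        nlinarith
    refine (Finset.sum_le_sum (fun d hd => Finset.sum_le_sum (fun u hu => step d hd u hu))).trans ?_
    simp only [Finset.sum_add_distrib, ← Finset.mul_sum, ← Finset.sum_mul]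
    have g1 : ∑ d ∈ Lo, ∑ u ∈ Loᶜ,
        ∑ a', (if v₁ a' = v₁ a then κ₁ a' * (ww Lo (A a) d u * (1 - ee (A a') d u)) else 0) ≤
        2 * ∑ a', (if v₁ a' = v₁ a then κ₁ a' * ((A a \ A a').card : ℝ) else 0) := by
      have : ∑ d ∈ Lo, ∑ u ∈ Loᶜ,
          ∑ a', (if v₁ a' = v₁ a then κ₁ a' * (ww Lo (A a) d u * (1 - ee (A a') d u)) else 0) =
          ∑ a', (if v₁ a' = v₁ a then κ₁ a' *
            ∑ d ∈ Lo, ∑ u ∈ Loᶜ, ww Lo (A a) d u * (1 - ee (A a') d u) else 0) := by
        rw [Finset.sum_congr rfl (fun d _ => Finset.sum_comm), Finset.sum_comm]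
        refine Finset.sum_congr rfl (fun a' _ => ?_)
        split_ifs
        · simp only [Finset.mul_sum]
        · simp
      rw [this, Finset.mul_sum]
      refine Finset.sum_le_sum (fun a' _ => ?_)
      split_ifs
      · have := mul_le_mul_of_nonneg_left
          (sum_ww_sub (Lo := Lo) (A := A a) (A' := A a') (card_im _ _) (card_im _ _)) (k1 a')
        linarith
      · simp
    have g2 : ∑ d ∈ Lo, ∑ u ∈ Loᶜ,
        ∑ b, κ₂ b * H (v₂ b * v₁ a) * (ww Lo (A a) d u * (1 - ee (B b) d u)) ≤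
        2 * ∑ b, κ₂ b * H (v₂ b * v₁ a) * ((A a \ B b).card : ℝ) := by
      have : ∑ d ∈ Lo, ∑ u ∈ Loᶜ,
          ∑ b, κ₂ b * H (v₂ b * v₁ a) * (ww Lo (A a) d u * (1 - ee (B b) d u)) =
          ∑ b, κ₂ b * H (v₂ b * v₁ a) *
            ∑ d ∈ Lo, ∑ u ∈ Loᶜ, ww Lo (A a) d u * (1 - ee (B b) d u) := by
        rw [Finset.sum_congr rfl (fun d _ => Finset.sum_comm), Finset.sum_comm]
        exact Finset.sum_congr rfl (fun b _ => by simp only [Finset.mul_sum])
      rw [this, Finset.mul_sum]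
      refine Finset.sum_le_sum (fun b _ => ?_)
      by_cases hb : κ₂ b = 0
      · simp [hb]
      · have := mul_le_mul_of_nonneg_left
          (sum_ww_sub (Lo := Lo) (A := A a) (A' := B b) (card_im _ _) (card_im _ _))
          (mul_nonneg (k2 b) (H0 _ (Finset.mul_mem_mul (mem2 b hb) hz₁m)))
        linarith
    have hM0 := M0 _ hz₁m
    have g1' := mul_le_mul_of_nonneg_right g1 hM0
    nlinarith
  refine (Finset.sum_le_sum (fun a _ => key a)).trans ?_
  -- the two final sums
  set S : ℝ := ∑ a, ∑ b, κ₁ a * κ₂ b * H (v₂ b * v₁ a) * (fl Lo (y b * x a) : ℝ) with hS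
  have fin2 : ∑ a, κ₁ a * (8 * ∑ b, κ₂ b * H (v₂ b * v₁ a) * ((A a \ B b).card : ℝ)) = 8 * S := by
    rw [hS, Finset.mul_sum]
    refine Finset.sum_congr rfl (fun a _ => ?_)
    rw [Finset.mul_sum, Finset.mul_sum, Finset.mul_sum]
    refine Finset.sum_congr rfl (fun b _ => ?_)
    rw [fl_mul_eq]; ring
  have fin1 : ∑ a, κ₁ a * (4 * (∑ a', (if v₁ a' = v₁ a then κ₁ a' * ((A a \ A a').card : ℝ)
      else 0)) * M (v₁ a)) ≤ 8 * S := by
    have tri : ∀ a a' b, ((A a \ A a').card : ℝ) ≤ ((A a \ B b).card : ℝ) +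
        ((A a' \ B b).card : ℝ) := by
      intro a a' b
      have h := card_sdiff_triangle (A a) (B b) (A a')
      rw [card_sdiff_symm (A := B b) (B := A a') (by rw [card_im, card_im])] at h
      exact_mod_cast h
    have b1 : ∀ a, κ₁ a * (4 * (∑ a', (if v₁ a' = v₁ a then κ₁ a' * ((A a \ A a').card : ℝ)
        else 0)) * M (v₁ a)) ≤ 4 * ∑ a', ∑ b, (if v₁ a' = v₁ a then κ₁ a * κ₁ a' * κ₂ b *
          H (v₂ b * v₁ a) * (((A a \ B b).card : ℝ) + ((A a' \ B b).card : ℝ)) else 0) := by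
      intro a
      by_cases ha : κ₁ a = 0
      · simp [ha]
      have hz₁m : v₁ a ∈ I₁ := mem1 a ha
      have : κ₁ a * (4 * (∑ a', (if v₁ a' = v₁ a then κ₁ a' * ((A a \ A a').card : ℝ) else 0))
          * M (v₁ a)) = 4 * ∑ a', ∑ b, (if v₁ a' = v₁ a then κ₁ a * κ₁ a' * κ₂ b *
          H (v₂ b * v₁ a) * ((A a \ A a').card : ℝ) else 0) := by
        rw [hM]; simp only
        rw [show ∀ p q r : ℝ, p * (4 * q * r) = 4 * (q * (p * r)) from fun p q r => by ring,
          Finset.sum_mul]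
        congr 1
        refine Finset.sum_congr rfl (fun a' _ => ?_)
        split_ifs
        · rw [Finset.mul_sum, Finset.mul_sum]
          exact Finset.sum_congr rfl (fun b _ => by ring)
        · simp
      rw [this]
      refine mul_le_mul_of_nonneg_left ?_ (by norm_num)
      refine Finset.sum_le_sum (fun a' _ => Finset.sum_le_sum (fun b _ => ?_))
      split_ifs
      · by_cases hb : κ₂ b = 0
        · simp [hb]
        · refine mul_le_mul_of_nonneg_left (tri a a' b) ?_
          exact mul_nonneg (mul_nonneg (mul_nonneg (k1 a) (k1 a')) (k2 b))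
            (H0 _ (Finset.mul_mem_mul (mem2 b hb) hz₁m))
      · exact le_rfl
    refine (Finset.sum_le_sum (fun a _ => b1 a)).trans ?_
    rw [← Finset.mul_sum]
    -- first half: sum over a' of the fibre mass is one
    have c1 : ∑ a, ∑ a', ∑ b, (if v₁ a' = v₁ a then κ₁ a * κ₁ a' * κ₂ b *
        H (v₂ b * v₁ a) * ((A a \ B b).card : ℝ) else 0) = S := by
      rw [hS]
      refine Finset.sum_congr rfl (fun a _ => ?_)
      rw [Finset.sum_comm]
      refine Finset.sum_congr rfl (fun b _ => ?_)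
      by_cases ha : κ₁ a = 0
      · simp [ha]
      have hz₁m : v₁ a ∈ I₁ := mem1 a ha
      have : ∑ a', (if v₁ a' = v₁ a then κ₁ a * κ₁ a' * κ₂ b *
        H (v₂ b * v₁ a) * ((A a \ B b).card : ℝ) else 0) =
        (∑ a', (if v₁ a' = v₁ a then κ₁ a' else 0)) * (κ₁ a * κ₂ b *
        H (v₂ b * v₁ a) * ((A a \ B b).card : ℝ)) := by
        rw [Finset.sum_mul]
        refine Finset.sum_congr rfl (fun a' _ => ?_)
        split_ifs <;> ring
      rw [this, m1, show ind I₁ (v₁ a) = 1 from if_pos hz₁m, one_mul, fl_mul_eq]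
    have c2 : ∑ a, ∑ a', ∑ b, (if v₁ a' = v₁ a then κ₁ a * κ₁ a' * κ₂ b *
        H (v₂ b * v₁ a) * ((A a' \ B b).card : ℝ) else 0) = S := by
      rw [← c1, Finset.sum_comm]
      refine Finset.sum_congr rfl (fun a _ => Finset.sum_congr rfl (fun a' _ =>
        Finset.sum_congr rfl (fun b _ => ?_)))
      by_cases h : v₁ a = v₁ a'
      · rw [if_pos h, if_pos h.symm, h]; ring
      · rw [if_neg h, if_neg (fun hc => h hc.symm)]
    have c3 : ∑ a, ∑ a', ∑ b, (if v₁ a' = v₁ a then κ₁ a * κ₁ a' * κ₂ b *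
          H (v₂ b * v₁ a) * (((A a \ B b).card : ℝ) + ((A a' \ B b).card : ℝ)) else 0) =
        S + S := by
      nth_rewrite 1 [← c1]
      nth_rewrite 1 [← c2]
      simp only [← Finset.sum_add_distrib]
      refine Finset.sum_congr rfl (fun a _ => Finset.sum_congr rfl (fun a' _ =>
        Finset.sum_congr rfl (fun b _ => ?_)))
      split_ifs <;> ring
    rw [c3]; linarith
  have : ∑ a, κ₁ a * (4 * (∑ a', (if v₁ a' = v₁ a then κ₁ a' * ((A a \ A a').card : ℝ) else 0)) *
        M (v₁ a) + 8 * ∑ b, κ₂ b * H (v₂ b * v₁ a) * ((A a \ B b).card : ℝ)) =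
      ∑ a, κ₁ a * (4 * (∑ a', (if v₁ a' = v₁ a then κ₁ a' * ((A a \ A a').card : ℝ) else 0))
      * M (v₁ a)) +
      ∑ a, κ₁ a * (8 * ∑ b, κ₂ b * H (v₂ b * v₁ a) * ((A a \ B b).card : ℝ)) := by
    rw [← Finset.sum_add_distrib]
    exact Finset.sum_congr rfl (fun a _ => by ring)
  rw [this]
  linarith

end abs

end Vale.Agent.P235.R2.H276
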