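/-
P235-M, helper276.  MIX (C2) for the tree law: for a node with children `l`, `r` (cut `l.size`) and
`m ≤ l.size ≤ n`, the expected flux over `[m, l.size)` and over `[l.size, n)` is at most 16 times
the expected flux over `[m, n)`.
-/
import Vale.Agent.P235.R2.H276.MixAbs
import Vale.Agent.P235.R2.H347.Mix

namespace Vale.Agent.P235.R2.H276

open Equiv Finset VPBruhat
open scoped Pointwise

section

set_option linter.unusedSectionVars false

variable {α : Type*} [LinearOrder α] [Fintype α]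

theorem fl_inv (Lo : Finset α) (v : Perm α) : fl Lo v⁻¹ = fl Lo v := by
  have h1 : fl Lo v⁻¹ = (im Lo v⁻¹ \ Lo).card := fl_eq Lo v⁻¹
  have h2 : fl Lo v = (im Lo 1 \ im Lo v⁻¹).card := by
    have := fl_mul_eq Lo 1 v
    rwa [mul_one] at this
  have h3 : im Lo (1 : Perm α) = Lo := by
    ext p; rw [mem_im]; simp
  rw [h1, h2, h3, card_sdiff_symm (card_im Lo v⁻¹)]

variable {Ω₁ Ω₂ : Type*} [Fintype Ω₁] [Fintype Ω₂]

/-- mirror form of `mix_abs` -/
theorem mix_abs_mirror {κ₁ : Ω₁ → ℝ} {κ₂ : Ω₂ → ℝ} {v₁ : Ω₁ → Perm α} {v₂ : Ω₂ → Perm α}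
    {x : Ω₁ → Perm α} {y : Ω₂ → Perm α} {I₁ I₂ : Finset (Perm α)}
    (hI₁ : IsDown I₁)
    (k1 : ∀ ω, 0 ≤ κ₁ ω) (k2 : ∀ ω, 0 ≤ κ₂ ω)
    (m1 : ∀ z, ∑ ω, (if v₁ ω = z then κ₁ ω else 0) = ind I₁ z)
    (m2 : ∀ z, ∑ ω, (if v₂ ω = z then κ₂ ω else 0) = ind I₂ z)
    {H : Perm α → ℝ} (H0 : ∀ z ∈ I₂ * I₁, 0 ≤ H z) (Hinc : IncOn (I₂ * I₁) H)
    {Lo : Finset α} (hLo : ∀ p q, p ≤ q → q ∈ Lo → p ∈ Lo)
    (half1 : ∀ z ∈ I₁, ∀ p q, p < q → z⁻¹ p < z⁻¹ q →
      ∑ ω, (if v₁ ω = z ∧ (x ω)⁻¹ q < (x ω)⁻¹ p then κ₁ ω else 0) ≤ 1 / 2)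
    (half2 : ∀ z ∈ I₂, ∀ p q, p < q → z p < z q →
      ∑ ω, (if v₂ ω = z ∧ y ω q < y ω p then κ₂ ω else 0) ≤ 1 / 2) :
    ∑ a, ∑ b, κ₁ a * κ₂ b * H (v₂ b * v₁ a) * (fl Lo (y b) : ℝ) ≤
      16 * ∑ a, ∑ b, κ₁ a * κ₂ b * H (v₂ b * v₁ a) * (fl Lo (y b * x a) : ℝ) := by
  classical
  have hset : I₁⁻¹ * I₂⁻¹ = (I₂ * I₁)⁻¹ := by rw [mul_inv_rev]
  have key := mix_abs (κ₁ := κ₂) (κ₂ := κ₁) (v₁ := fun b => (v₂ b)⁻¹) (v₂ := fun a => (v₁ a)⁻¹)
    (x := fun b => (y b)⁻¹) (y := fun a => (x a)⁻¹) (I₁ := I₂⁻¹) (I₂ := I₁⁻¹)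
    (isDown_inv hI₁) k2 k1
    (fun z => by
      rw [ind_inv, ← m2]
      refine Finset.sum_congr rfl (fun ω _ => ?_)
      congr 1
      exact propext inv_eq_iff_eq_inv)
    (fun z => by
      rw [ind_inv, ← m1]
      refine Finset.sum_congr rfl (fun ω _ => ?_)
      congr 1
      exact propext inv_eq_iff_eq_inv)
    (H := fun z => H z⁻¹)
    (fun z hz => by
      rw [hset, Finset.mem_inv'] at hz
      exact H0 _ hz)
    (fun z z' hz hz' h => by
      rw [hset, Finset.mem_inv'] at hz hz'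
      exact Hinc _ _ hz hz' (up_inv h))
    (Lo := Lo) hLo
    (fun z hz p q hpq h => by
      rw [Finset.mem_inv'] at hz
      have := half2 z⁻¹ hz p q hpq h
      refine le_trans (le_of_eq ?_) this
      refine Finset.sum_congr rfl (fun ω _ => ?_)
      congr 1
      rw [inv_inv, inv_eq_iff_eq_inv])
    (fun z hz p q hpq h => by
      rw [Finset.mem_inv'] at hz
      have := half1 z⁻¹ hz p q hpq (by rwa [inv_inv])
      refine le_trans (le_of_eq ?_) this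
      refine Finset.sum_congr rfl (fun ω _ => ?_)
      congr 1
      rw [inv_eq_iff_eq_inv])
  rw [Finset.sum_comm] at key
  have e1 : ∑ a, ∑ b, κ₂ b * κ₁ a * H ((v₁ a)⁻¹ * (v₂ b)⁻¹)⁻¹ * (fl Lo (y b)⁻¹ : ℝ) =
      ∑ a, ∑ b, κ₁ a * κ₂ b * H (v₂ b * v₁ a) * (fl Lo (y b) : ℝ) := by
    refine Finset.sum_congr rfl (fun a _ => Finset.sum_congr rfl (fun b _ => ?_))
    rw [fl_inv, mul_inv_rev, inv_inv, inv_inv]; ring
  have e2 : ∑ b, ∑ a, κ₂ b * κ₁ a * H ((v₁ a)⁻¹ * (v₂ b)⁻¹)⁻¹ * (fl Lo ((x a)⁻¹ * (y b)⁻¹) : ℝ) =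
      ∑ a, ∑ b, κ₁ a * κ₂ b * H (v₂ b * v₁ a) * (fl Lo (y b * x a) : ℝ) := by
    rw [Finset.sum_comm]
    refine Finset.sum_congr rfl (fun a _ => Finset.sum_congr rfl (fun b _ => ?_))
    have : (x a)⁻¹ * (y b)⁻¹ = (y b * x a)⁻¹ := by rw [mul_inv_rev]
    rw [this, fl_inv, mul_inv_rev, inv_inv, inv_inv]; ring
  have key' : ∑ a, ∑ b, κ₂ b * κ₁ a * H ((v₁ a)⁻¹ * (v₂ b)⁻¹)⁻¹ * (fl Lo (y b)⁻¹ : ℝ) ≤
      16 * ∑ b, ∑ a, κ₂ b * κ₁ a * H ((v₁ a)⁻¹ * (v₂ b)⁻¹)⁻¹ *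
        (fl Lo ((x a)⁻¹ * (y b)⁻¹) : ℝ) := key
  rw [e1, e2] at key'
  exact key'

/-- the law of a node in product form -/
theorem law_node (l r : BT α) (P : Perm α → ℝ) (a : l.Conf) (b : r.Conf) :
    (BT.node l r).law P (a, b) = l.ker (l.val a) a * r.ker (r.val b) b *
      (P (r.val b * l.val a) / fac r.set l.set (r.val b * l.val a)) := by
  show P (r.val b * l.val a) * (if r.val b * l.val a = r.val b * l.val a then
      l.ker (l.val a) a * r.ker (r.val b) b / fac r.set l.set (r.val b * l.val a) else 0) = _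
  rw [if_pos rfl]; ring

theorem FF_half (t : BT α) (hok : t.Ok) (n : ℕ) (z : Perm α) {i j : α} (hij : i < j)
    (hz : z i < z j) : t.FF n z i j ≤ 1 / 2 := by
  have h := BT.FF_le t hok n z i j hij hz
  have h1 := ind_le_one t.set (z * swap i j)
  linarith [h.1, h.2]

/-- a sum over configurations with given value, in terms of `FF` -/
theorem sum_FF (t : BT α) (n : ℕ) (z : Perm α) (i j : α) :
    ∑ c, (if t.val c = z ∧ t.pre n c j < t.pre n c i then t.ker (t.val c) c else 0) =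
      t.FF n z i j := by
  unfold BT.FF
  refine Finset.sum_congr rfl (fun c _ => ?_)
  by_cases h : t.val c = z
  · rw [h]
    by_cases h' : t.pre n c j < t.pre n c i
    · simp [h']
    · simp [h']
  · have : t.ker z c = 0 := by
      by_contra hc
      exact h (BT.ker_ne_zero t z c hc).1
    simp [h, this]

variable (l r : BT α) (hok : (BT.node l r).Ok) {P : Perm α → ℝ}
  (h0 : ∀ z ∈ (BT.node l r).set, 0 ≤ P z) (hP : IncOn (BT.node l r).set P)
  {Lo : Finset α} (hLo : ∀ p q, p ≤ q → q ∈ Lo → p ∈ Lo)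

include hok h0 hP hLo

/-- **MIX** for the tree law, left part; windows are given by the products `x` (suffix of `l`) and
`y` (prefix of `r`). -/
theorem mix_left (m k : ℕ) :
    ∑ c, (BT.node l r).law P c * (fl Lo (l.val c.1 * (l.pre m c.1)⁻¹) : ℝ) ≤
      16 * ∑ c, (BT.node l r).law P c *
        (fl Lo (r.pre k c.2 * (l.val c.1 * (l.pre m c.1)⁻¹)) : ℝ) := by
  have hd1 := BT.isDown_set hok.1
  have hd2 := BT.isDown_set hok.2
  have key := mix_abs (κ₁ := fun a => l.ker (l.val a) a) (κ₂ := fun b => r.ker (r.val b) b)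
    (v₁ := l.val) (v₂ := r.val) (x := fun a => l.val a * (l.pre m a)⁻¹)
    (y := fun b => r.pre k b) (I₁ := l.set) (I₂ := r.set) hd2
    (fun ω => BT.ker_nonneg _ _ _) (fun ω => BT.ker_nonneg _ _ _)
    (fun z => BT.sum_ker_fiber l z) (fun z => BT.sum_ker_fiber r z)
    (H := fun z => P z / fac r.set l.set z)
    (fun z hz => div_nonneg (h0 z hz) (fac_nonneg _ _ _)) (incOn_div hd2 hd1 hP h0)
    (Lo := Lo) hLo
    (fun z _ p q hpq h => by
      have e : ∑ ω, (if l.val ω = z ∧ (l.val ω * (l.pre m ω)⁻¹)⁻¹ q <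
          (l.val ω * (l.pre m ω)⁻¹)⁻¹ p then l.ker (l.val ω) ω else 0) =
          l.FF m z (z⁻¹ p) (z⁻¹ q) := by
        rw [← sum_FF]
        refine Finset.sum_congr rfl (fun ω _ => ?_)
        by_cases hz : l.val ω = z
        · rw [mul_inv_rev, inv_inv, Perm.mul_apply, Perm.mul_apply, hz]
        · simp [hz]
      rw [e]
      exact FF_half l hok.1 m z h (by simpa using hpq))
    (fun z _ p q hpq h => by
      have e := sum_FF r k z p q
      rw [e]
      exact FF_half r hok.2 k z hpq h)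
  have e : ∀ G : l.Conf → r.Conf → ℝ, ∑ c, (BT.node l r).law P c * G c.1 c.2 =
      ∑ a, ∑ b, l.ker (l.val a) a * r.ker (r.val b) b *
        (P (r.val b * l.val a) / fac r.set l.set (r.val b * l.val a)) * G a b := by
    intro G
    show ∑ c : l.Conf × r.Conf, (BT.node l r).law P c * G c.1 c.2 = _
    rw [Fintype.sum_prod_type]
    refine Finset.sum_congr rfl (fun a _ => Finset.sum_congr rfl (fun b _ => ?_))
    rw [law_node]
  rw [e (fun a _ => (fl Lo (l.val a * (l.pre m a)⁻¹) : ℝ)),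
    e (fun a b => (fl Lo (r.pre k b * (l.val a * (l.pre m a)⁻¹)) : ℝ))]
  exact key

/-- **MIX** for the tree law, right part. -/
theorem mix_right (m k : ℕ) :
    ∑ c, (BT.node l r).law P c * (fl Lo (r.pre k c.2) : ℝ) ≤
      16 * ∑ c, (BT.node l r).law P c *
        (fl Lo (r.pre k c.2 * (l.val c.1 * (l.pre m c.1)⁻¹)) : ℝ) := by
  have hd1 := BT.isDown_set hok.1
  have hd2 := BT.isDown_set hok.2
  have key := mix_abs_mirror (κ₁ := fun a => l.ker (l.val a) a)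
    (κ₂ := fun b => r.ker (r.val b) b)
    (v₁ := l.val) (v₂ := r.val) (x := fun a => l.val a * (l.pre m a)⁻¹)
    (y := fun b => r.pre k b) (I₁ := l.set) (I₂ := r.set) hd1
    (fun ω => BT.ker_nonneg _ _ _) (fun ω => BT.ker_nonneg _ _ _)
    (fun z => BT.sum_ker_fiber l z) (fun z => BT.sum_ker_fiber r z)
    (H := fun z => P z / fac r.set l.set z)
    (fun z hz => div_nonneg (h0 z hz) (fac_nonneg _ _ _)) (incOn_div hd2 hd1 hP h0)
    (Lo := Lo) hLo
    (fun z _ p q hpq h => by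
      have e : ∑ ω, (if l.val ω = z ∧ (l.val ω * (l.pre m ω)⁻¹)⁻¹ q <
          (l.val ω * (l.pre m ω)⁻¹)⁻¹ p then l.ker (l.val ω) ω else 0) =
          l.FF m z (z⁻¹ p) (z⁻¹ q) := by
        rw [← sum_FF]
        refine Finset.sum_congr rfl (fun ω _ => ?_)
        by_cases hz : l.val ω = z
        · rw [mul_inv_rev, inv_inv, Perm.mul_apply, Perm.mul_apply, hz]
        · simp [hz]
      rw [e]
      exact FF_half l hok.1 m z h (by simpa using hpq))
    (fun z _ p q hpq h => by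
      have e := sum_FF r k z p q
      rw [e]
      exact FF_half r hok.2 k z hpq h)
  have e : ∀ G : l.Conf → r.Conf → ℝ, ∑ c, (BT.node l r).law P c * G c.1 c.2 =
      ∑ a, ∑ b, l.ker (l.val a) a * r.ker (r.val b) b *
        (P (r.val b * l.val a) / fac r.set l.set (r.val b * l.val a)) * G a b := by
    intro G
    show ∑ c : l.Conf × r.Conf, (BT.node l r).law P c * G c.1 c.2 = _
    rw [Fintype.sum_prod_type]
    refine Finset.sum_congr rfl (fun a _ => Finset.sum_congr rfl (fun b _ => ?_))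
    rw [law_node]
  rw [e (fun _ b => (fl Lo (r.pre k b) : ℝ)),
    e (fun a b => (fl Lo (r.pre k b * (l.val a * (l.pre m a)⁻¹)) : ℝ))]
  exact key

end

end Vale.Agent.P235.R2.H276
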