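/-
P235-M, helper276.  MIX (C2) in window form: `win t m n c = t.pre n c * (t.pre m c)⁻¹` is the
product over the window `[m, n)`, `flux a` (helper549) counts the strands which cross level `a`.
-/
import Vale.Agent.P235.R2.H276.Mix
import Vale.Agent.P235.R2.H549.Gamma

namespace Vale.Agent.P235.R2.H276

open Equiv Finset VPBruhat
open scoped Pointwise

/-- the product over the window `[m, n)` -/
def win {α : Type*} (t : BT α) (m n : ℕ) (c : t.Conf) : Perm α := t.pre n c * (t.pre m c)⁻¹

/-- the levels below `a` -/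
def below {n : ℕ} (a : ℕ) : Finset (Fin n) := Finset.univ.filter (fun x => (x : ℕ) < a)

theorem below_lower {n : ℕ} (a : ℕ) : ∀ p q : Fin n, p ≤ q → q ∈ below a → p ∈ below a := by
  intro p q hpq hq
  simp only [below, Finset.mem_filter, Finset.mem_univ, true_and] at hq ⊢
  exact lt_of_le_of_lt hpq hq

theorem flux_eq_fl {n : ℕ} (a : ℕ) (v : Perm (Fin n)) : flux a v = fl (below a) v := by
  unfold flux fl below
  congr 1
  ext x
  simp only [Finset.mem_filter, Finset.mem_univ, true_and, not_lt]

theorem win_left {α : Type*} (l r : BT α) {m : ℕ} (hm : m ≤ l.size) (c : (BT.node l r).Conf) :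
    win (BT.node l r) m l.size c = l.val c.1 * (l.pre m c.1)⁻¹ := by
  unfold win
  rw [BT.pre_node_left l r hm, BT.pre_node_left l r le_rfl, BT.pre_top l _ le_rfl]

theorem win_right {α : Type*} (l r : BT α) {n : ℕ} (hn : l.size ≤ n) (c : (BT.node l r).Conf) :
    win (BT.node l r) l.size n c = r.pre (n - l.size) c.2 := by
  unfold win
  rw [BT.pre_node_right l r hn, BT.pre_node_left l r le_rfl, BT.pre_top l _ le_rfl]
  group

theorem win_both {α : Type*} (l r : BT α) {m n : ℕ} (hm : m ≤ l.size) (hn : l.size ≤ n)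
    (c : (BT.node l r).Conf) :
    win (BT.node l r) m n c = r.pre (n - l.size) c.2 * (l.val c.1 * (l.pre m c.1)⁻¹) := by
  unfold win
  rw [BT.pre_node_right l r hn, BT.pre_node_left l r hm, mul_assoc]

section

variable {α : Type*} [LinearOrder α] [Fintype α] (l r : BT α) (hok : (BT.node l r).Ok)
  {P : Perm α → ℝ} (h0 : ∀ z ∈ (BT.node l r).set, 0 ≤ P z) (hP : IncOn (BT.node l r).set P)
  {Lo : Finset α} (hLo : ∀ p q, p ≤ q → q ∈ Lo → p ∈ Lo)

include hok h0 hP hLo

/-- MIX, left part, window form -/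
theorem mix_win_left {m n : ℕ} (hm : m ≤ l.size) (hn : l.size ≤ n) :
    ∑ c, (BT.node l r).law P c * (fl Lo (win (BT.node l r) m l.size c) : ℝ) ≤
      16 * ∑ c, (BT.node l r).law P c * (fl Lo (win (BT.node l r) m n c) : ℝ) := by
  have h := mix_left l r hok h0 hP hLo m (n - l.size)
  have e1 : ∀ c, win (BT.node l r) m l.size c = l.val c.1 * (l.pre m c.1)⁻¹ := win_left l r hm
  have e2 : ∀ c, win (BT.node l r) m n c =
      r.pre (n - l.size) c.2 * (l.val c.1 * (l.pre m c.1)⁻¹) := win_both l r hm hn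
  simp only [e1, e2]
  exact h

/-- MIX, right part, window form -/
theorem mix_win_right {m n : ℕ} (hm : m ≤ l.size) (hn : l.size ≤ n) :
    ∑ c, (BT.node l r).law P c * (fl Lo (win (BT.node l r) l.size n c) : ℝ) ≤
      16 * ∑ c, (BT.node l r).law P c * (fl Lo (win (BT.node l r) m n c) : ℝ) := by
  have h := mix_right l r hok h0 hP hLo m (n - l.size)
  have e1 : ∀ c, win (BT.node l r) l.size n c = r.pre (n - l.size) c.2 := win_right l r hn
  have e2 : ∀ c, win (BT.node l r) m n c =
      r.pre (n - l.size) c.2 * (l.val c.1 * (l.pre m c.1)⁻¹) := win_both l r hm hn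
  simp only [e1, e2]
  exact h

end

section

variable {N : ℕ} (l r : BT (Fin N)) (hok : (BT.node l r).Ok)
  {P : Perm (Fin N) → ℝ} (h0 : ∀ z ∈ (BT.node l r).set, 0 ≤ P z)
  (hP : IncOn (BT.node l r).set P)

include hok h0 hP

/-- **MIX (C2)**, left part, for the flux over level `a`. -/
theorem mix_flux_left (a : ℕ) {m n : ℕ} (hm : m ≤ l.size) (hn : l.size ≤ n) :
    ∑ c, (BT.node l r).law P c * (flux a (win (BT.node l r) m l.size c) : ℝ) ≤
      16 * ∑ c, (BT.node l r).law P c * (flux a (win (BT.node l r) m n c) : ℝ) := by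
  simp only [flux_eq_fl]
  exact mix_win_left l r hok h0 hP (below_lower a) hm hn

/-- **MIX (C2)**, right part, for the flux over level `a`. -/
theorem mix_flux_right (a : ℕ) {m n : ℕ} (hm : m ≤ l.size) (hn : l.size ≤ n) :
    ∑ c, (BT.node l r).law P c * (flux a (win (BT.node l r) l.size n c) : ℝ) ≤
      16 * ∑ c, (BT.node l r).law P c * (flux a (win (BT.node l r) m n c) : ℝ) := by
  simp only [flux_eq_fl]
  exact mix_win_right l r hok h0 hP (below_lower a) hm hn

end

end Vale.Agent.P235.R2.H276
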