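/-
P235-M, helper276.  QUASI-MONOTONICITY (C4): for the tree law (increasing root law, letters at the
leaves) and windows `[m', n') ⊆ [m, n)` the expected flux over the small window is at most 32 times
the expected flux over the large window.
-/
import Vale.Agent.P235.R2.H276.MixWin
import Vale.Agent.P235.R2.H347.Pref

namespace Vale.Agent.P235.R2.H276

open Equiv Finset VPBruhat
open scoped Pointwise

section

set_option linter.unusedSectionVars false

variable {α : Type*} [LinearOrder α] [Fintype α]

/-- the flux increases along the Bruhat order -/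
theorem fl_up {Lo : Finset α} (hLo : ∀ p q, p ≤ q → q ∈ Lo → p ∈ Lo) {v v' : Perm α}
    (h : Up v v') : fl Lo v ≤ fl Lo v' := by
  obtain ⟨i, j, hij, hv, rfl⟩ := h
  unfold fl
  by_cases hvi : v i ∈ Lo
  · -- the exchange does not decrease the set of leaving strands
    refine Finset.card_le_card_of_injOn (fun s => swap i j s) ?_ ?_ |>.trans le_rfl
    · intro s hs
      rw [Finset.mem_coe, Finset.mem_filter] at hs ⊢
      show swap i j s ∈ Lo ∧ (v * swap i j) (swap i j s) ∉ Lo
      have e : (v * swap i j) (swap i j s) = v s := by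
        rw [Perm.mul_apply, swap_apply_self]
      rw [e]
      refine ⟨?_, hs.2⟩
      by_cases h1 : s = i
      · subst h1; exact absurd hvi hs.2
      by_cases h2 : s = j
      · subst h2; rw [swap_apply_right]; exact hLo _ _ hij.le hs.1
      rw [swap_apply_of_ne_of_ne h1 h2]; exact hs.1
    · intro a _ b _ h; exact (swap i j).injective h
  · -- both values are outside
    have hvj : v j ∉ Lo := fun hc => hvi (hLo _ _ hv.le hc)
    refine Finset.card_le_card (fun s hs => ?_)
    simp only [Finset.mem_filter] at hs ⊢
    refine ⟨hs.1, ?_⟩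
    rw [Perm.mul_apply]
    by_cases h1 : s = i
    · subst h1; rw [swap_apply_left]; exact hvj
    by_cases h2 : s = j
    · subst h2; rw [swap_apply_right]; exact hvi
    rw [swap_apply_of_ne_of_ne h1 h2]; exact hs.2

theorem fl_inc {Lo : Finset α} (hLo : ∀ p q, p ≤ q → q ∈ Lo → p ∈ Lo) :
    Inc (fun v : Perm α => (fl Lo v : ℝ)) := by
  intro x x' h
  have := fl_up hLo h
  show (fl Lo x : ℝ) ≤ (fl Lo x' : ℝ)
  exact_mod_cast this

theorem fl_one (Lo : Finset α) : fl Lo (1 : Perm α) = 0 := by
  unfold fl
  rw [Finset.card_eq_zero, Finset.filter_eq_empty_iff]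
  intro x hx h; exact h hx

/-- subadditivity -/
theorem fl_mul_le (Lo : Finset α) (y x : Perm α) : fl Lo (y * x) ≤ fl Lo y + fl Lo x := by
  have h1 : fl Lo (y * x) = (im Lo x \ im Lo y⁻¹).card := fl_mul_eq Lo x y
  have h2 : fl Lo x = (im Lo x \ Lo).card := fl_eq Lo x
  have h3 : fl Lo y = (Lo \ im Lo y⁻¹).card := by
    have := fl_mul_eq Lo 1 y
    rw [mul_one] at this
    rw [this]
    congr 2
    ext p; rw [mem_im]; simp
  rw [h1, h2, h3, add_comm]
  exact card_sdiff_triangle _ _ _

theorem win_mul {β : Type*} (t : BT β) (m k n : ℕ) (c : t.Conf) :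
    win t m n c = win t k n c * win t m k c := by
  unfold win; group

theorem win_self {β : Type*} (t : BT β) (m : ℕ) (c : t.Conf) : win t m m c = 1 := by
  unfold win; group

/-- windows with the same end: `[m', n)` inside `[m, n)`, in terms of windows `[m', s)`, `[n', s)` -/
theorem fl_win_left (Lo : Finset α) (t : BT α) (m n s : ℕ) (c : t.Conf) :
    fl Lo (win t m n c) ≤ fl Lo (win t m s c) + fl Lo (win t n s c) := by
  have h : win t m n c = (win t n s c)⁻¹ * win t m s c := by unfold win; group
  rw [h]
  refine (fl_mul_le Lo _ _).trans ?_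
  rw [fl_inv]; omega

theorem fl_win_right (Lo : Finset α) (t : BT α) (m n s : ℕ) (c : t.Conf) :
    fl Lo (win t m n c) ≤ fl Lo (win t s m c) + fl Lo (win t s n c) := by
  have h : win t m n c = win t s n c * (win t s m c)⁻¹ := by unfold win; group
  rw [h]
  refine (fl_mul_le Lo _ _).trans ?_
  rw [fl_inv]; omega

theorem win_node_left {β : Type*} (l r : BT β) {m n : ℕ} (hm : m ≤ l.size) (hn : n ≤ l.size)
    (c : (BT.node l r).Conf) : win (BT.node l r) m n c = win l m n c.1 := by
  unfold win
  rw [BT.pre_node_left l r hm, BT.pre_node_left l r hn]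

theorem win_node_right {β : Type*} (l r : BT β) {m n : ℕ} (hm : l.size ≤ m) (hn : l.size ≤ n)
    (c : (BT.node l r).Conf) :
    win (BT.node l r) m n c = win r (m - l.size) (n - l.size) c.2 := by
  unfold win
  rw [BT.pre_node_right l r hm, BT.pre_node_right l r hn]
  group

theorem sum_law_left (l r : BT α) (P : Perm α → ℝ) (G : l.Conf → ℝ) :
    ∑ c, (BT.node l r).law P c * G c.1 = ∑ a, l.law (margR r.set l.set P) a * G a := by
  show ∑ c : l.Conf × r.Conf, (BT.node l r).law P c * G c.1 = _
  rw [Fintype.sum_prod_type]
  refine Finset.sum_congr rfl (fun a _ => ?_)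
  rw [← BT.sum_right l r P a, Finset.sum_mul]

theorem sum_law_right (l r : BT α) (P : Perm α → ℝ) (G : r.Conf → ℝ) :
    ∑ c, (BT.node l r).law P c * G c.2 = ∑ b, r.law (margL r.set l.set P) b * G b := by
  show ∑ c : l.Conf × r.Conf, (BT.node l r).law P c * G c.2 = _
  rw [Fintype.sum_prod_type, Finset.sum_comm]
  refine Finset.sum_congr rfl (fun b _ => ?_)
  rw [← BT.sum_left l r P b, Finset.sum_mul]

/-- **QUASI-MONOTONICITY (C4).** -/
theorem qm {Lo : Finset α} (hLo : ∀ p q, p ≤ q → q ∈ Lo → p ∈ Lo) :
    (t : BT α) → t.Ok → t.IsLet → (P : Perm α → ℝ) → (∀ z ∈ t.set, 0 ≤ P z) → IncOn t.set P →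
    (m m' n' n : ℕ) → m ≤ m' → m' ≤ n' → n' ≤ n → n ≤ t.size →
    ∑ c, t.law P c * (fl Lo (win t m' n' c) : ℝ) ≤
      32 * ∑ c, t.law P c * (fl Lo (win t m n c) : ℝ)
  | BT.leaf B, hok, hl, P, h0, hP, m, m', n', n, h1, h2, h3, h4 => by
      have hs : (BT.leaf B : BT α).size = 1 := rfl
      have hlaw : ∀ c, 0 ≤ (BT.leaf B : BT α).law P c := fun c => BT.law_nonneg h0 c
      by_cases hmn : m' = n'
      · subst hmn
        have : ∑ c, (BT.leaf B : BT α).law P c *
            (fl Lo (win (BT.leaf B : BT α) m' m' c) : ℝ) = 0 := by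
          refine Finset.sum_eq_zero (fun c _ => ?_)
          rw [win_self, fl_one]; simp
        rw [this]
        exact mul_nonneg (by norm_num) (Finset.sum_nonneg fun c _ =>
          mul_nonneg (hlaw c) (Nat.cast_nonneg _))
      · have e1 : m' = m := by omega
        have e2 : n' = n := by omega
        subst e1; subst e2
        have : 0 ≤ ∑ c, (BT.leaf B : BT α).law P c *
            (fl Lo (win (BT.leaf B : BT α) m' n' c) : ℝ) :=
          Finset.sum_nonneg fun c _ => mul_nonneg (hlaw c) (Nat.cast_nonneg _)
        linarith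
  | BT.node l r, hok, hl, P, h0, hP, m, m', n', n, h1, h2, h3, h4 => by
      have hd1 := BT.isDown_set hok.1
      have hd2 := BT.isDown_set hok.2
      have hs : (BT.node l r).size = l.size + r.size := rfl
      have hlaw : ∀ c, 0 ≤ (BT.node l r).law P c := fun c => BT.law_nonneg h0 c
      rcases Nat.le_total n l.size with hn | hn
      · -- everything in the left child
        have ih := qm hLo l hok.1 hl.1 (margR r.set l.set P) (fun z _ => margR_nonneg h0 z)
          (margR_inc hd2 hd1 hP h0) m m' n' n h1 h2 h3 hn
        rw [← sum_law_left l r P, ← sum_law_left l r P] at ih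
        have e1 : ∀ c, win (BT.node l r) m' n' c = win l m' n' c.1 :=
          win_node_left l r (by omega) (by omega)
        have e2 : ∀ c, win (BT.node l r) m n c = win l m n c.1 :=
          win_node_left l r (by omega) (by omega)
        simp only [e1, e2]
        exact ih
      rcases Nat.le_total l.size m with hm | hm
      · -- everything in the right child
        have ih := qm hLo r hok.2 hl.2 (margL r.set l.set P) (fun z _ => margL_nonneg h0 z)
          (margL_inc hd2 hd1 hP h0) (m - l.size) (m' - l.size) (n' - l.size) (n - l.size)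
          (by omega) (by omega) (by omega) (by omega)
        rw [← sum_law_right l r P, ← sum_law_right l r P] at ih
        have e1 : ∀ c, win (BT.node l r) m' n' c = win r (m' - l.size) (n' - l.size) c.2 :=
          win_node_right l r (by omega) (by omega)
        have e2 : ∀ c, win (BT.node l r) m n c = win r (m - l.size) (n - l.size) c.2 :=
          win_node_right l r (by omega) (by omega)
        simp only [e1, e2]
        exact ih
      -- the cut of the root lies in `[m, n]`
      have mixL := mix_win_left l r hok h0 hP hLo hm hn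
      have mixR := mix_win_right l r hok h0 hP hLo hm hn
      -- monotonicity of suffix windows of the left child
      have suf : ∀ k k' : ℕ, k ≤ k' → k' ≤ l.size →
          ∑ c, (BT.node l r).law P c * (fl Lo (win (BT.node l r) k' l.size c) : ℝ) ≤
          ∑ c, (BT.node l r).law P c * (fl Lo (win (BT.node l r) k l.size c) : ℝ) := by
        intro k k' hk hk'
        have h := BT.suf_mono l hok.1 hl.1 (h := margR r.set l.set P)
          (fun z _ => margR_nonneg h0 z) (margR_inc hd2 hd1 hP h0) (fl_inc hLo) hk
        have e1 : ∀ c, win (BT.node l r) k' l.size c = l.val c.1 * (l.pre k' c.1)⁻¹ :=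
          win_left l r hk'
        have e2 : ∀ c, win (BT.node l r) k l.size c = l.val c.1 * (l.pre k c.1)⁻¹ :=
          win_left l r (hk.trans hk')
        simp only [e1, e2]
        rw [← sum_law_left l r P, ← sum_law_left l r P] at h
        exact h
      have pre : ∀ k k' : ℕ, l.size ≤ k → k ≤ k' →
          ∑ c, (BT.node l r).law P c * (fl Lo (win (BT.node l r) l.size k c) : ℝ) ≤
          ∑ c, (BT.node l r).law P c * (fl Lo (win (BT.node l r) l.size k' c) : ℝ) := by
        intro k k' hk hk'
        have h := BT.pre_mono r hok.2 hl.2 (h := margL r.set l.set P)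
          (fun z _ => margL_nonneg h0 z) (margL_inc hd2 hd1 hP h0) (fl_inc hLo)
          (show k - l.size ≤ k' - l.size by omega)
        have e1 : ∀ c, win (BT.node l r) l.size k c = r.pre (k - l.size) c.2 :=
          win_right l r hk
        have e2 : ∀ c, win (BT.node l r) l.size k' c = r.pre (k' - l.size) c.2 :=
          win_right l r (hk.trans hk')
        simp only [e1, e2]
        rw [← sum_law_right l r P, ← sum_law_right l r P] at h
        exact h
      have addsum : ∀ (A B C : (BT.node l r).Conf → ℕ), (∀ c, A c ≤ B c + C c) →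
          ∑ c, (BT.node l r).law P c * (A c : ℝ) ≤
            ∑ c, (BT.node l r).law P c * (B c : ℝ) + ∑ c, (BT.node l r).law P c * (C c : ℝ) := by
        intro A B C h
        rw [← Finset.sum_add_distrib]
        refine Finset.sum_le_sum fun c _ => ?_
        rw [← mul_add]
        exact mul_le_mul_of_nonneg_left (by exact_mod_cast h c) (hlaw c)
      rcases Nat.le_total n' l.size with hn' | hn'
      · have a1 := addsum _ _ _ (fun c => fl_win_left Lo (BT.node l r) m' n' l.size c)
        have a2 := suf m m' h1 (by omega)
        have a3 := suf m n' (by omega) hn'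
        linarith
      rcases Nat.le_total l.size m' with hm' | hm'
      · have a1 := addsum _ _ _ (fun c => fl_win_right Lo (BT.node l r) m' n' l.size c)
        have a2 := pre m' n hm' (by omega)
        have a3 := pre n' n hn' h3
        linarith
      · have a1 := addsum (fun c => fl Lo (win (BT.node l r) m' n' c))
          (fun c => fl Lo (win (BT.node l r) l.size n' c))
          (fun c => fl Lo (win (BT.node l r) m' l.size c)) (fun c => by
            have h := fl_mul_le Lo (win (BT.node l r) l.size n' c) (win (BT.node l r) m' l.size c)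
            rw [← win_mul] at h
            exact h)
        have a2 := pre n' n hn' h3
        have a3 := suf m m' h1 hm'
        linarith

end

/-- **QM** for the flux over level `a` (constant 32). -/
theorem qm_flux {N : ℕ} (a : ℕ) (t : BT (Fin N)) (hok : t.Ok) (hl : t.IsLet)
    {P : Perm (Fin N) → ℝ} (h0 : ∀ z ∈ t.set, 0 ≤ P z) (hP : IncOn t.set P)
    {m m' n' n : ℕ} (h1 : m ≤ m') (h2 : m' ≤ n') (h3 : n' ≤ n) (h4 : n ≤ t.size) :
    ∑ c, t.law P c * (flux a (win t m' n' c) : ℝ) ≤
      32 * ∑ c, t.law P c * (flux a (win t m n c) : ℝ) := by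
  simp only [flux_eq_fl]
  exact qm (below_lower a) t hok hl P h0 hP m m' n' n h1 h2 h3 h4

end Vale.Agent.P235.R2.H276
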